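import Vale.Agent.P088.R2.H269.W.W14

/-!
# P088, stage 3: functions of quadratic growth

Pointwise bounds of the first and second derivatives of sums, products, compositions; a smooth
function which has them off a compact set has them everywhere.
-/

open Set Filter
open scoped ContDiff Topology

noncomputable section

namespace Vale.Agent.P088.R2.H850.E

variable {E G : Type*} [NormedAddCommGroup E] [NormedSpace ℝ E] [NormedAddCommGroup G]
  [NormedSpace ℝ G]

/-- The derivative in the direction `v`. -/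
def dv (v : E) (f : E → ℝ) (z : E) : ℝ := fderiv ℝ f z v

/-- Smooth near `z`, with bounds of the first and second derivative at `z`. -/
structure B2 (f : E → ℝ) (z : E) (a b : ℝ) : Prop where
  a0 : 0 ≤ a
  b0 : 0 ≤ b
  sm : ContDiffAt ℝ 2 f z
  d1 : ∀ v, |dv v f z| ≤ a * ‖v‖
  d2 : ∀ v w, |dv w (dv v f) z| ≤ b * (‖v‖ * ‖w‖)

variable {f g : E → ℝ} {z : E} {a b a' b' : ℝ}

theorem B2.mono (h : B2 f z a b) (ha : a ≤ a') (hb : b ≤ b') : B2 f z a' b' :=
  ⟨h.a0.trans ha, h.b0.trans hb, h.sm,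
    fun v => (h.d1 v).trans (mul_le_mul_of_nonneg_right ha (norm_nonneg _)),
    fun v w => (h.d2 v w).trans (mul_le_mul_of_nonneg_right hb (by positivity))⟩

theorem dv_congr (v : E) (e : f =ᶠ[𝓝 z] g) : dv v f =ᶠ[𝓝 z] dv v g := by
  filter_upwards [e.eventually_nhds] with w hw
  unfold dv
  rw [EventuallyEq.fderiv_eq hw]

theorem B2.congr (h : B2 g z a b) (e : f =ᶠ[𝓝 z] g) : B2 f z a b := by
  refine ⟨h.a0, h.b0, h.sm.congr_of_eventuallyEq e, fun v => ?_, fun v w => ?_⟩
  · rw [(dv_congr v e).self_of_nhds]; exact h.d1 v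
  · rw [(dv_congr w (dv_congr v e)).self_of_nhds]; exact h.d2 v w

theorem ev_diff (h : ContDiffAt ℝ 2 f z) : ∀ᶠ w in 𝓝 z, DifferentiableAt ℝ f w := by
  have : ∀ᶠ w in 𝓝 z, ContDiffAt ℝ 2 f w := h.eventually (by simp)
  filter_upwards [this] with w hw using hw.differentiableAt (by norm_num)

theorem dv_diff (h : ContDiffAt ℝ 2 f z) (v : E) : DifferentiableAt ℝ (dv v f) z :=
  ((h.fderiv_right (m := 1) (by norm_num)).differentiableAt (by norm_num)).clm_apply
    (differentiableAt_const v)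

theorem dv_add (v : E) (hf : DifferentiableAt ℝ f z) (hg : DifferentiableAt ℝ g z) :
    dv v (fun w => f w + g w) z = dv v f z + dv v g z := by
  unfold dv
  rw [fderiv_fun_add hf hg]
  rfl

theorem dv_mul (v : E) (hf : DifferentiableAt ℝ f z) (hg : DifferentiableAt ℝ g z) :
    dv v (fun w => f w * g w) z = f z * dv v g z + g z * dv v f z := by
  unfold dv
  rw [fderiv_fun_mul hf hg]
  rfl

theorem dv_comp (v : E) {φ : ℝ → ℝ} (hφ : DifferentiableAt ℝ φ (f z))
    (hf : DifferentiableAt ℝ f z) : dv v (fun w => φ (f w)) z = deriv φ (f z) * dv v f z := by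
  unfold dv
  have := (hφ.hasDerivAt.comp_hasFDerivAt z hf.hasFDerivAt).fderiv
  change fderiv ℝ (φ ∘ f) z v = _
  rw [this]
  rfl

theorem dv_const (v : E) (c : ℝ) (z : E) : dv v (fun _ => c) z = 0 := by
  unfold dv
  simp

theorem B2.add (hf : B2 f z a b) (hg : B2 g z a' b') :
    B2 (fun w => f w + g w) z (a + a') (b + b') := by
  refine ⟨add_nonneg hf.a0 hg.a0, add_nonneg hf.b0 hg.b0, hf.sm.add hg.sm, fun v => ?_,
    fun v w => ?_⟩
  · rw [dv_add v (ev_diff hf.sm).self_of_nhds (ev_diff hg.sm).self_of_nhds, add_mul]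
    exact (abs_add_le _ _).trans (add_le_add (hf.d1 v) (hg.d1 v))
  · have e : dv v (fun w => f w + g w) =ᶠ[𝓝 z] fun w => dv v f w + dv v g w := by
      filter_upwards [ev_diff hf.sm, ev_diff hg.sm] with w h1 h2 using dv_add v h1 h2
    rw [(dv_congr w e).self_of_nhds, dv_add w (dv_diff hf.sm v) (dv_diff hg.sm v), add_mul]
    exact (abs_add_le _ _).trans (add_le_add (hf.d2 v w) (hg.d2 v w))

theorem B2.const (c : ℝ) : B2 (fun _ : E => c) z 0 0 := by
  refine ⟨le_rfl, le_rfl, contDiffAt_const, fun v => ?_, fun v w => ?_⟩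
  · rw [dv_const]; simp
  · have : dv v (fun _ : E => c) = fun _ => 0 := by ext; rw [dv_const]
    rw [this, dv_const]; simp

/-- Composition with a function of one variable. -/
theorem B2.comp (hf : B2 f z a b) {φ : ℝ → ℝ} (hφ : ContDiffAt ℝ 2 φ (f z)) {c₁ c₂ : ℝ}
    (h1 : |deriv φ (f z)| ≤ c₁) (h2 : |deriv (deriv φ) (f z)| ≤ c₂) :
    B2 (fun w => φ (f w)) z (c₁ * a) (c₂ * a ^ 2 + c₁ * b) := by
  have hf1 := ev_diff hf.sm
  have hcf : ContinuousAt f z := hf.sm.continuousAt
  have hφ1 : ∀ᶠ t in 𝓝 (f z), DifferentiableAt ℝ φ t := ev_diff hφ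
  have hc1 := (abs_nonneg _).trans h1
  have hc2 := (abs_nonneg _).trans h2
  have ha := hf.a0
  have hb := hf.b0
  have hd : DifferentiableAt ℝ (deriv φ) (f z) := by
    have h5 := dv_diff hφ 1
    have h6 : deriv φ = dv 1 φ := by ext t; simp [dv]
    rwa [h6]
  refine ⟨by positivity, by positivity, hφ.comp z hf.sm, fun v => ?_, fun v w => ?_⟩
  · rw [dv_comp v hφ1.self_of_nhds hf1.self_of_nhds, abs_mul, mul_assoc]
    exact mul_le_mul h1 (hf.d1 v) (abs_nonneg _) hc1
  · have e : dv v (fun w => φ (f w)) =ᶠ[𝓝 z] fun w => deriv φ (f w) * dv v f w := by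
      filter_upwards [hf1, hcf.eventually hφ1] with w h3 h4 using dv_comp v h4 h3
    have hd' : DifferentiableAt ℝ (fun w => deriv φ (f w)) z := hd.comp z hf1.self_of_nhds
    rw [(dv_congr w e).self_of_nhds, dv_mul w hd' (dv_diff hf.sm v),
      dv_comp w hd hf1.self_of_nhds]
    have k1 : |deriv φ (f z) * dv w (dv v f) z| ≤ c₁ * (b * (‖v‖ * ‖w‖)) := by
      rw [abs_mul]
      exact mul_le_mul h1 (hf.d2 v w) (abs_nonneg _) hc1
    have k2 : |dv v f z * (deriv (deriv φ) (f z) * dv w f z)| ≤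
        (a * ‖v‖) * (c₂ * (a * ‖w‖)) := by
      rw [abs_mul, abs_mul]
      exact mul_le_mul (hf.d1 v) (mul_le_mul h2 (hf.d1 w) (abs_nonneg _) hc2)
        (by positivity) (by positivity)
    refine (abs_add_le _ _).trans ((add_le_add k1 k2).trans (le_of_eq ?_))
    ring

/-- Products. -/
theorem B2.mul (hf : B2 f z a b) (hg : B2 g z a' b') {c c' : ℝ} (h1 : |f z| ≤ c)
    (h2 : |g z| ≤ c') :
    B2 (fun w => f w * g w) z (c * a' + c' * a) (c * b' + c' * b + 2 * (a * a')) := by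
  have hc := (abs_nonneg _).trans h1
  have hc' := (abs_nonneg _).trans h2
  have ha := hf.a0
  have hb := hf.b0
  have ha' := hg.a0
  have hb' := hg.b0
  have hf1 := (ev_diff hf.sm).self_of_nhds
  have hg1 := (ev_diff hg.sm).self_of_nhds
  refine ⟨by positivity, by positivity, hf.sm.mul hg.sm, fun v => ?_, fun v w => ?_⟩
  · rw [dv_mul v hf1 hg1]
    have k1 : |f z * dv v g z| ≤ c * (a' * ‖v‖) := by
      rw [abs_mul]; exact mul_le_mul h1 (hg.d1 v) (abs_nonneg _) hc
    have k2 : |g z * dv v f z| ≤ c' * (a * ‖v‖) := by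
      rw [abs_mul]; exact mul_le_mul h2 (hf.d1 v) (abs_nonneg _) hc'
    refine (abs_add_le _ _).trans ((add_le_add k1 k2).trans (le_of_eq ?_))
    ring
  · have e : dv v (fun w => f w * g w) =ᶠ[𝓝 z] fun w => f w * dv v g w + g w * dv v f w := by
      filter_upwards [ev_diff hf.sm, ev_diff hg.sm] with w h3 h4 using dv_mul v h3 h4
    have hfd := dv_diff hf.sm v
    have hgd := dv_diff hg.sm v
    rw [(dv_congr w e).self_of_nhds, dv_add w (hf1.fun_mul hgd) (hg1.fun_mul hfd),
      dv_mul w hf1 hgd, dv_mul w hg1 hfd]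
    have k1 : |f z * dv w (dv v g) z| ≤ c * (b' * (‖v‖ * ‖w‖)) := by
      rw [abs_mul]; exact mul_le_mul h1 (hg.d2 v w) (abs_nonneg _) hc
    have k2 : |g z * dv w (dv v f) z| ≤ c' * (b * (‖v‖ * ‖w‖)) := by
      rw [abs_mul]; exact mul_le_mul h2 (hf.d2 v w) (abs_nonneg _) hc'
    have k3 : |dv v g z * dv w f z| ≤ (a' * ‖v‖) * (a * ‖w‖) := by
      rw [abs_mul]
      exact mul_le_mul (hg.d1 v) (hf.d1 w) (abs_nonneg _) (by positivity)
    have k4 : |dv v f z * dv w g z| ≤ (a * ‖v‖) * (a' * ‖w‖) := by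
      rw [abs_mul]
      exact mul_le_mul (hf.d1 v) (hg.d1 w) (abs_nonneg _) (by positivity)
    calc |f z * dv w (dv v g) z + dv v g z * dv w f z +
          (g z * dv w (dv v f) z + dv v f z * dv w g z)|
        ≤ |f z * dv w (dv v g) z| + |dv v g z * dv w f z| +
          (|g z * dv w (dv v f) z| + |dv v f z * dv w g z|) :=
          (abs_add_le _ _).trans (add_le_add (abs_add_le _ _) (abs_add_le _ _))
      _ ≤ _ := add_le_add (add_le_add k1 k3) (add_le_add k2 k4)
      _ = _ := by ring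

theorem B2.cmul (c : ℝ) (hf : B2 f z a b) : B2 (fun w => c * f w) z (|c| * a) (|c| * b) := by
  have := B2.mul (B2.const (z := z) c) hf (c := |c|) (c' := |f z|) le_rfl le_rfl
  refine this.mono (le_of_eq (by ring)) (le_of_eq (by ring))

/-- Composition with a linear map. -/
theorem B2.lin {F : G → ℝ} (L : E →L[ℝ] G) (h : B2 F (L z) a b) :
    B2 (fun w => F (L w)) z (a * ‖L‖) (b * ‖L‖ ^ 2) := by
  have ha := h.a0
  have hb := h.b0
  have hc : ContinuousAt L z := L.continuous.continuousAt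
  have key : ∀ v : E, ∀ {F : G → ℝ} {z : E}, DifferentiableAt ℝ F (L z) →
      dv v (fun w => F (L w)) z = dv (L v) F (L z) := by
    intro v F z hF
    unfold dv
    have := (hF.hasFDerivAt.comp z L.hasFDerivAt).fderiv
    change fderiv ℝ (F ∘ L) z v = _
    rw [this]
    rfl
  refine ⟨by positivity, by positivity, ContDiffAt.comp z h.sm L.contDiff.contDiffAt,
    fun v => ?_, fun v w => ?_⟩
  · rw [key v (ev_diff h.sm).self_of_nhds]
    refine (h.d1 (L v)).trans ?_
    rw [mul_assoc]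
    exact mul_le_mul_of_nonneg_left (L.le_opNorm v) ha
  · have e : dv v (fun w => F (L w)) =ᶠ[𝓝 z] fun w => dv (L v) F (L w) := by
      filter_upwards [hc.eventually (ev_diff h.sm)] with w hw using key v hw
    rw [(dv_congr w e).self_of_nhds, key w (dv_diff h.sm (L v))]
    refine (h.d2 (L v) (L w)).trans ?_
    calc b * (‖L v‖ * ‖L w‖) ≤ b * ((‖L‖ * ‖v‖) * (‖L‖ * ‖w‖)) := by
          gcongr <;> exact L.le_opNorm _
      _ = b * ‖L‖ ^ 2 * (‖v‖ * ‖w‖) := by ring

theorem two_le : (2 : WithTop ℕ∞) ≤ ∞ := by norm_cast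

/-- Bounds on a compact set. -/
theorem b2_compact (hf : ContDiff ℝ ∞ f) {K : Set E} (hK : IsCompact K) :
    ∃ C, 0 ≤ C ∧ ∀ z ∈ K, B2 f z C C := by
  obtain ⟨C₁, hC₁⟩ := hK.exists_bound_of_continuousOn
    (hf.continuous_iteratedFDeriv (m := 1) (by exact_mod_cast le_top)).continuousOn
  obtain ⟨C₂, hC₂⟩ := hK.exists_bound_of_continuousOn
    (hf.continuous_iteratedFDeriv (m := 2) two_le).continuousOn
  refine ⟨max (max C₁ C₂) 0, le_max_right _ _, fun z hz => ?_⟩
  have hB1 : C₁ ≤ max (max C₁ C₂) 0 := (le_max_left _ _).trans (le_max_left _ _)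
  have hB2 : C₂ ≤ max (max C₁ C₂) 0 := (le_max_right _ _).trans (le_max_left _ _)
  refine ⟨le_max_right _ _, le_max_right _ _,
    (hf.of_le two_le).contDiffAt, fun v => ?_, fun v w => ?_⟩
  · have e : dv v f z = iteratedFDeriv ℝ 1 f z (fun _ => v) := by
      rw [iteratedFDeriv_one_apply]
      rfl
    rw [e, ← Real.norm_eq_abs]
    refine (ContinuousMultilinearMap.le_opNorm _ _).trans ?_
    rw [Fin.prod_univ_one]
    exact mul_le_mul_of_nonneg_right ((hC₁ z hz).trans hB1) (norm_nonneg _)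
  · have hd : DifferentiableAt ℝ (fderiv ℝ f) z :=
      ((hf.fderiv_right (m := 1) (by norm_cast)).differentiable (by norm_num)) z
    have e : dv w (dv v f) z = iteratedFDeriv ℝ 2 f z ![w, v] := by
      rw [iteratedFDeriv_two_apply]
      unfold dv
      rw [fderiv_clm_apply hd (differentiableAt_const v)]
      simp
    rw [e, ← Real.norm_eq_abs]
    refine (ContinuousMultilinearMap.le_opNorm _ _).trans ?_
    rw [Fin.prod_univ_two]
    simp only [Matrix.cons_val_zero, Matrix.cons_val_one]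
    rw [mul_comm ‖w‖ ‖v‖]
    exact mul_le_mul_of_nonneg_right ((hC₂ z hz).trans hB2) (by positivity)

/-- Quadratic growth. -/
structure Gq (f : E → ℝ) : Prop where
  sm : ContDiff ℝ ∞ f
  bd : ∃ C, 0 ≤ C ∧ ∀ z, B2 f z (C * (1 + ‖z‖)) (C * (1 + ‖z‖) ^ 2)

/-- The bounds have to be checked off a compact set. -/
theorem gq_of (hf : ContDiff ℝ ∞ f) {K : Set E} (hK : IsCompact K) {C : ℝ}
    (h : ∀ z ∉ K, B2 f z (C * (1 + ‖z‖)) (C * (1 + ‖z‖) ^ 2)) : Gq f := by
  obtain ⟨C₁, h0, hC₁⟩ := b2_compact hf hK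
  refine ⟨hf, max C C₁, le_max_of_le_right h0, fun z => ?_⟩
  have hz1 : (1 : ℝ) ≤ 1 + ‖z‖ := by linarith [norm_nonneg z]
  have hz2 : (1 : ℝ) ≤ (1 + ‖z‖) ^ 2 := by nlinarith [norm_nonneg z]
  have hB0 : 0 ≤ max C C₁ := le_max_of_le_right h0
  by_cases hz : z ∈ K
  · exact (hC₁ z hz).mono ((le_max_right _ _).trans (le_mul_of_one_le_right hB0 hz1))
      ((le_max_right _ _).trans (le_mul_of_one_le_right hB0 hz2))
  · exact (h z hz).mono (mul_le_mul_of_nonneg_right (le_max_left _ _) (by linarith))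
      (mul_le_mul_of_nonneg_right (le_max_left _ _) (by linarith))

end Vale.Agent.P088.R2.H850.E
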