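import Vale.Agent.P088.R2.H850.E.Ws
import Vale.Agent.P088.R2.H165.Tab
import Vale.Agent.P088.R2.H509.E.PT
import Vale.Agent.P088.R2.H660.P.Let

/-!
# P088, stage 3, EST': lower bounds of the margins of `a² + b²`, letter by letter

Each margin is at least a constant times `min (E, √E)`, `E = e^u`; `A` is an upper bound of the
bounded quantities of the zone.
-/

open Set
open scoped ContDiff Topology

noncomputable section

namespace Vale.Agent.P088.R2.H850.E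

open Vale.Agent.P088.R2.H961.GW Vale.Agent.P088.R2.H960.W
open Vale.Agent.P088.R2.H551.E
open Vale.Agent.P088.R2.H165.Tab

variable {E ι : Type*} [NormedAddCommGroup E] [NormedSpace ℝ E] [Fintype ι]
variable {ν : Nu E} {c C s A B : ℝ} {z : E}

/-- `min (E, √E)`. -/
theorem min_le_self (u : ℝ) : min (Real.exp u) (Real.exp (u / 2)) ≤ Real.exp u := min_le_left _ _

theorem half_le {u : ℝ} (h : 1 ≤ Real.exp u) : Real.exp (u / 2) ≤ Real.exp u := by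
  have h0 : 0 ≤ u := by
    by_contra hc
    have := Real.exp_lt_one_iff.2 (not_le.1 hc)
    linarith
  exact Real.exp_le_exp.2 (by linarith)

/-- `min (E, √E)` is at most `max 1 B` if `E ≤ B`. -/
theorem min_le_of_le {u : ℝ} (h : Real.exp u ≤ B) : min (Real.exp u) (Real.exp (u / 2)) ≤ B :=
  (min_le_left _ _).trans h

omit [NormedAddCommGroup E] [NormedSpace ℝ E] in
theorem nn_M0 (hc : 0 ≤ c) (h : 0 ≤ ν.En z) (hs : 0 ≤ s * ν.N z) : Nn (M0 ν c s) z := by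
  refine ⟨hc, ?_, ?_, ?_, ?_, ?_, le_rfl, le_rfl⟩
  all_goals
    change (0 : ℝ) ≤ _
    simp only [M0]
    positivity

omit [NormedAddCommGroup E] [NormedSpace ℝ E] in
/-- Region 0. -/
theorem lw_M0 (hc : 0 ≤ c) (h : 0 ≤ ν.En z) (hs : 0 ≤ s * ν.N z) (hN : 1 ≤ ν.N z) :
    c * ν.En z ≤ lw (M0 ν c s) z := by
  refine le_lw₁ (nn_M0 hc h hs) ?_ ?_
  all_goals
    simp only [M0]
    have h1 : (1 : ℝ) ≤ ν.N z ^ 2 := one_le_pow₀ hN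
    have h2 : ν.En z ≤ (ν.En z + s * ν.N z) * ν.N z ^ 2 :=
      (le_add_of_nonneg_right hs).trans (le_mul_of_one_le_right (by linarith) h1)
    exact mul_le_mul_of_nonneg_left h2 hc

omit [NormedAddCommGroup E] [NormedSpace ℝ E] in
theorem nn_MI (hc : 0 ≤ c) (h : 0 ≤ ν.En z) (hF₁ : 0 ≤ ν.F₁ z) (hF₂ : 0 ≤ ν.F₂ z)
    (hm : 0 ≤ ν.m z) : Nn (MI ν c) z := by
  refine ⟨hc, hc, hc, ?_, ?_, ?_, ?_, ?_⟩
  all_goals
    change (0 : ℝ) ≤ _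
    simp only [MI, Nu.wI]
    positivity

omit [NormedAddCommGroup E] [NormedSpace ℝ E] in
/-- Region I: `1 ≤ E ≤ A`, `m ≤ A`, `1 ≤ N ≤ A`. -/
theorem lw_MI (hc : 0 ≤ c) (h : 1 ≤ ν.En z) (hA : ν.En z ≤ A) (hF₁ : 0 ≤ ν.F₁ z)
    (hF₂ : 0 ≤ ν.F₂ z) (hm : 0 ≤ ν.m z) (hmA : ν.m z ≤ A) (hN : 1 ≤ ν.N z) (hNA : ν.N z ≤ A) :
    c / (4 * A ^ 3) * ν.En z ≤ lw (MI ν c) z := by
  have h0 : 0 < ν.En z := by linarith
  have hA1 : 1 ≤ A := h.trans hA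
  have hA3 : A ^ 1 ≤ A ^ 3 := pow_le_pow_right₀ hA1 (by norm_num)
  have e1 : c / (4 * A ^ 3) * ν.En z ≤ c * (ν.En z / (4 * A ^ 3)) := by
    rw [div_mul_eq_mul_div, mul_div_assoc]
  have hden : ν.En z * (1 + ν.m z) + ν.N z ^ 2 ≤ 4 * A ^ 3 := by
    have a1 : ν.En z * (1 + ν.m z) ≤ A * (1 + A) := by gcongr
    have a2 : ν.N z ^ 2 ≤ A ^ 2 := by gcongr
    have a3 : A ^ 2 ≤ A ^ 3 := pow_le_pow_right₀ hA1 (by norm_num)
    nlinarith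
  have hden0 : 0 < ν.En z * (1 + ν.m z) + ν.N z ^ 2 := by positivity
  refine le_lw₂ (nn_MI hc h0.le hF₁ hF₂ hm) ?_ ?_
  · refine e1.trans ?_
    simp only [MI]
    have a1 : ν.En z / (4 * A ^ 3) ≤ ν.En z ^ 2 := by
      rw [div_le_iff₀ (by positivity)]
      have a2 : (1 : ℝ) ≤ 4 * A ^ 3 := by nlinarith [one_le_pow₀ hA1 (n := 3)]
      have a3 : ν.En z ≤ ν.En z ^ 2 := by nlinarith
      calc ν.En z ≤ ν.En z ^ 2 := a3
        _ ≤ ν.En z ^ 2 * (4 * A ^ 3) := le_mul_of_one_le_right (by positivity) a2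
    have := mul_le_mul_of_nonneg_left a1 hc
    have h5 : 0 ≤ c * ν.En z ^ 2 := by positivity
    linarith
  · refine e1.trans ?_
    simp only [MI, Nu.wI]
    have a1 : ν.En z / (4 * A ^ 3) ≤
        ν.N z ^ 2 * ν.En z ^ 2 / (ν.En z * (1 + ν.m z) + ν.N z ^ 2) := by
      rw [div_le_div_iff₀ (by positivity) hden0]
      have a2 : (1 : ℝ) ≤ ν.N z ^ 2 := one_le_pow₀ hN
      have a3 : ν.En z ≤ ν.N z ^ 2 * ν.En z ^ 2 := by nlinarith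
      exact mul_le_mul a3 hden hden0.le (by positivity)
    have := mul_le_mul_of_nonneg_left a1 hc
    have h5 : 0 ≤ c * (ν.N z ^ 2 * ν.En z ^ 2 / (ν.En z * (1 + ν.m z) + ν.N z ^ 2)) := by
      positivity
    linarith

omit [NormedAddCommGroup E] [NormedSpace ℝ E] in
theorem nn_MII (h : 0 ≤ ν.k z) (hr : 0 ≤ ν.r2 z) (hF₁ : 0 ≤ ν.F₁ z) (hF₂ : 0 ≤ ν.F₂ z) :
    Nn (MII ν) z := by
  refine ⟨by change (0 : ℝ) ≤ 1 / 2; norm_num, ?_, ?_, ?_, ?_, ?_, ?_, le_rfl⟩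
  all_goals
    change (0 : ℝ) ≤ _
    simp only [MII]
    positivity

omit [NormedAddCommGroup E] [NormedSpace ℝ E] in
/-- Zone II: `k ≥ k₀`, `F ≥ c₁ E m`, `m ≥ m₀`. -/
theorem lw_MII {k₀ c₁ m₀ : ℝ} (hk₀ : 0 ≤ k₀) (hc₁ : 0 ≤ c₁) (hm₀ : 0 ≤ m₀) (hE : 0 ≤ ν.En z)
    (hr : 0 ≤ ν.r2 z) (hk : k₀ ≤ ν.k z) (hm : m₀ ≤ ν.m z) (hF₁ : c₁ * (ν.En z * ν.m z) ≤ ν.F₁ z)
    (hF₂ : c₁ * (ν.En z * ν.m z) ≤ ν.F₂ z) :
    k₀ * c₁ * m₀ / 4 * ν.En z ≤ lw (MII ν) z := by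
  have hm' : 0 ≤ ν.m z := hm₀.trans hm
  have hf : 0 ≤ c₁ * (ν.En z * ν.m z) := by positivity
  refine le_lw₁ (nn_MII (hk₀.trans hk) hr (hf.trans hF₁) (hf.trans hF₂)) ?_ ?_
  · simp only [MII]
    have a1 : k₀ * (c₁ * (ν.En z * m₀)) ≤ ν.k z * ν.F₁ z :=
      mul_le_mul hk ((mul_le_mul_of_nonneg_left (mul_le_mul_of_nonneg_left hm hE) hc₁).trans hF₁)
        (by positivity) (hk₀.trans hk)
    linarith
  · simp only [MII]
    have a1 : k₀ * (c₁ * (ν.En z * m₀)) ≤ ν.k z * ν.F₂ z :=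
      mul_le_mul hk ((mul_le_mul_of_nonneg_left (mul_le_mul_of_nonneg_left hm hE) hc₁).trans hF₂)
        (by positivity) (hk₀.trans hk)
    linarith

omit [NormedAddCommGroup E] [NormedSpace ℝ E] in
theorem nn_MB (hc : 0 ≤ c) (h : 0 ≤ ν.En z) (hF₁ : 0 ≤ ν.F₁ z) (hF₂ : 0 ≤ ν.F₂ z)
    (hm : 0 ≤ ν.m z) : Nn (MB ν c) z := by
  refine ⟨hc, hc, hc, ?_, ?_, ?_, ?_, ?_⟩
  all_goals
    change (0 : ℝ) ≤ _
    simp only [MB, Nu.wB]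
    positivity

omit [NormedAddCommGroup E] [NormedSpace ℝ E] in
/-- The core. -/
theorem lw_MB (hc : 0 ≤ c) (h : 1 ≤ ν.En z) (hF₁ : 0 ≤ ν.F₁ z) (hF₂ : 0 ≤ ν.F₂ z)
    (hm : 0 ≤ ν.m z) (hN : 0 ≤ ν.N z) : c * ν.En z ≤ lw (MB ν c) z := by
  have h0 : 0 < ν.En z := by linarith
  refine le_lw₂ (nn_MB hc h0.le hF₁ hF₂ hm) ?_ ?_
  · simp only [MB]
    have a1 : ν.En z ≤ ν.En z ^ 2 := by nlinarith
    have := mul_le_mul_of_nonneg_left a1 hc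
    have h5 : 0 ≤ c * ν.En z ^ 2 := by positivity
    linarith
  · simp only [MB, Nu.wB]
    have a1 : ν.En z ≤ ν.En z * (ν.N z + 1 + ν.m z) ^ 2 / (1 + ν.m z) := by
      rw [le_div_iff₀ (by positivity)]
      refine mul_le_mul_of_nonneg_left ?_ h0.le
      nlinarith
    have := mul_le_mul_of_nonneg_left a1 hc
    have h5 : 0 ≤ c * (ν.En z * (ν.N z + 1 + ν.m z) ^ 2 / (1 + ν.m z)) := by positivity
    linarith

omit [NormedAddCommGroup E] [NormedSpace ℝ E] in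
/-- The tubes. -/
theorem lw_MT1 {N : E → ℝ} (hc : 0 ≤ c) (hN : 1 ≤ N z) : c ≤ lw (H509.PT.MT1 c N : Q8 E) z := by
  have h1 : (1 : ℝ) ≤ N z ^ 2 := one_le_pow₀ hN
  have h2 : (1 : ℝ) ≤ N z ^ 3 := one_le_pow₀ hN
  unfold lw H509.PT.MT1
  simp only [min_self, mul_zero, add_zero]
  exact le_min (le_mul_of_one_le_right hc h1) (le_mul_of_one_le_right hc h2)

omit [NormedAddCommGroup E] [NormedSpace ℝ E] in
theorem lw_MT2 {N : E → ℝ} (hc : 0 ≤ c) (hN : 1 ≤ N z) : c ≤ lw (H509.PT.MT2 c N : Q8 E) z := by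
  have h1 : (1 : ℝ) ≤ N z ^ 2 := one_le_pow₀ hN
  have h2 : (1 : ℝ) ≤ N z ^ 3 := one_le_pow₀ hN
  unfold lw H509.PT.MT2
  simp only [min_self, mul_zero, add_zero]
  exact le_min (le_mul_of_one_le_right hc h2) (le_mul_of_one_le_right hc h1)

variable {σ τ : Sl E ι} {W m G : E → ℝ} {κ₀ ρ₁ : ℝ}

/-- Zone A. -/
theorem lw_MA (h1 : 3 * B ≤ m z * σ.F W z) (h2 : 3 * B ≤ m z * τ.F W z) :
    B ≤ lw (H747.SW.MA σ τ W m κ₀) z := by
  unfold lw H747.SW.MA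
  simp only [min_self, mul_zero, add_zero]
  exact le_min (by linarith) (by linarith)

/-- The flat pass. -/
theorem lw_MP (hρ : 0 ≤ ρ₁) (hG : 0 ≤ G z) (h1 : 0 ≤ σ.F W z) (hGA : B ≤ G z ^ 2)
    (h2 : B ≤ G z * τ.F W z) : ρ₁ * B ≤ lw (H660.P.MP σ τ W G ρ₁) z := by
  unfold lw H660.P.MP
  simp only [min_self, mul_zero, add_zero]
  refine le_min (mul_le_mul_of_nonneg_left ?_ hρ) (mul_le_mul_of_nonneg_left h2 hρ)
  nlinarith [mul_nonneg hG h1]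

theorem lw_MPm (hρ : 0 ≤ ρ₁) (hG : 0 ≤ G z) (h1 : 0 ≤ τ.F W z) (hGA : B ≤ G z ^ 2)
    (h2 : B ≤ G z * σ.F W z) : ρ₁ * B ≤ lw (H660.P.MPm σ τ W G ρ₁) z := by
  unfold lw H660.P.MPm
  simp only [min_self, mul_zero, add_zero]
  refine le_min (mul_le_mul_of_nonneg_left h2 hρ) (mul_le_mul_of_nonneg_left ?_ hρ)
  nlinarith [mul_nonneg hG h1]

end Vale.Agent.P088.R2.H850.E
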