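import Vale.Agent.P088.R2.H338.E.Pay

/-!
# P088, stage 3: the weight of the glued estimate

`lw q`: the coefficient of `a² + b²` in the density of `q`. The weight `ws = (1/4) ∑ χ_k² lw M_k`
is continuous, it is at least `(1/4) min lw M_k` over the zones `k` active at the point, and the
zone inequalities with the payment pair by pair give the estimate with this weight and with gains.
-/

open MeasureTheory Set Filter
open scoped ContDiff Topology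

noncomputable section

namespace Vale.Agent.P088.R2.H850.E

open Vale.Agent.P088.R2.H961.GW Vale.Agent.P088.R2.H960.W Vale.Agent.P088.R2.H644
open Vale.Agent.P088.R2.H551.E

variable {E ι α : Type*} [NormedAddCommGroup E] [NormedSpace ℝ E] [Fintype ι]

/-- The coefficient of `a² + b²` in the density of `q`. -/
def lw (q : Q8 E) (z : E) : ℝ := min (q.w₁ z) (q.w₂ z) + 2 * min (q.wb z) (q.wc z)

omit [NormedAddCommGroup E] [NormedSpace ℝ E] in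
theorem lw_sm {f : E → ℝ} (q : Q8 E) {z : E} (hf : 0 ≤ f z) : lw (q.sm f) z = f z * lw q z := by
  unfold lw Q8.sm
  simp only [Pi.mul_apply]
  rw [← mul_min_of_nonneg _ _ hf, ← mul_min_of_nonneg _ _ hf]
  ring

omit [NormedSpace ℝ E] in
theorem lw_cont {U : Set E} {q : Q8 E} (h : q.Ct U) : ContinuousOn (lw q) U :=
  (ContinuousOn.inf h.w₁ h.w₂).add (continuousOn_const.mul (ContinuousOn.inf h.wb h.wc))

/-- All coefficients are nonnegative at the point. -/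
abbrev Nn (q : Q8 E) (z : E) : Prop := Q8.Le 0 q z

omit [NormedAddCommGroup E] [NormedSpace ℝ E] in
theorem lw_nonneg {q : Q8 E} {z : E} (h : Nn q z) : 0 ≤ lw q z := by
  have h1 : 0 ≤ min (q.w₁ z) (q.w₂ z) := le_min h.w₁ h.w₂
  have h2 : 0 ≤ min (q.wb z) (q.wc z) := le_min h.wb h.wc
  unfold lw
  linarith

omit [NormedAddCommGroup E] [NormedSpace ℝ E] in
/-- Lower bounds of `lw`. -/
theorem le_lw₁ {q : Q8 E} {z : E} (h : Nn q z) {B : ℝ} (h1 : B ≤ q.w₁ z) (h2 : B ≤ q.w₂ z) :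
    B ≤ lw q z := by
  have h3 : B ≤ min (q.w₁ z) (q.w₂ z) := le_min h1 h2
  have h4 : 0 ≤ min (q.wb z) (q.wc z) := le_min h.wb h.wc
  unfold lw
  linarith

omit [NormedAddCommGroup E] [NormedSpace ℝ E] in
theorem le_lw₂ {q : Q8 E} {z : E} (h : Nn q z) {B : ℝ} (h1 : B ≤ 2 * q.wb z)
    (h2 : B ≤ 2 * q.wc z) : B ≤ lw q z := by
  have h3 : B / 2 ≤ min (q.wb z) (q.wc z) := le_min (by linarith) (by linarith)
  have h4 : 0 ≤ min (q.w₁ z) (q.w₂ z) := le_min h.w₁ h.w₂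
  unfold lw
  linarith

variable {σ τ : Sl E ι} {v₁ v₂ W a b : E → ℝ} {z : E}

theorem lw_le_dens {q : Q8 E} (h : Nn q z) :
    lw q z * (a z ^ 2 + b z ^ 2) ≤ q.dens σ τ v₁ v₂ W a b z := by
  have k0 := mul_nonneg h.κ (sqd_nonneg σ τ v₁ v₂ W a b z)
  have k1 := mul_nonneg h.ζ₁ (Q8.nX_nonneg σ W a z)
  have k2 := mul_nonneg h.ζ₂ (Q8.nX_nonneg τ W b z)
  have k3 := mul_nonneg h.ζy (Q8.nY_nonneg σ τ W a b z)
  have e1 := mul_le_mul_of_nonneg_right (min_le_left (q.w₁ z) (q.w₂ z)) (sq_nonneg (a z))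
  have e2 := mul_le_mul_of_nonneg_right (min_le_right (q.w₁ z) (q.w₂ z)) (sq_nonneg (b z))
  have e3 := mul_le_mul_of_nonneg_right (min_le_left (q.wb z) (q.wc z)) (sq_nonneg (a z + b z))
  have e4 := mul_le_mul_of_nonneg_right (min_le_right (q.wb z) (q.wc z)) (sq_nonneg (a z - b z))
  unfold lw Q8.dens
  nlinarith [k0, k1, k2, k3, e1, e2, e3, e4]

/-- The part of the density with the gains. -/
theorem gain_le_dens {q : Q8 E} (h : Nn q z) :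
    q.κ z * sqd σ τ v₁ v₂ W a b z + q.ζ₁ z * nX σ W a z + q.ζ₂ z * nX τ W b z ≤
      q.dens σ τ v₁ v₂ W a b z := by
  have k3 := mul_nonneg h.ζy (Q8.nY_nonneg σ τ W a b z)
  have e1 := mul_nonneg h.w₁ (sq_nonneg (a z))
  have e2 := mul_nonneg h.w₂ (sq_nonneg (b z))
  have e3 := mul_nonneg h.wb (sq_nonneg (a z + b z))
  have e4 := mul_nonneg h.wc (sq_nonneg (a z - b z))
  unfold Q8.dens
  linarith [k3, e1, e2, e3, e4]

theorem dens_nonneg {q : Q8 E} (h : Nn q z) : 0 ≤ q.dens σ τ v₁ v₂ W a b z := by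
  have k0 := mul_nonneg h.κ (sqd_nonneg σ τ v₁ v₂ W a b z)
  have k1 := mul_nonneg h.ζ₁ (Q8.nX_nonneg σ W a z)
  have k2 := mul_nonneg h.ζ₂ (Q8.nX_nonneg τ W b z)
  linarith [gain_le_dens (σ := σ) (τ := τ) (v₁ := v₁) (v₂ := v₂) (W := W) (a := a) (b := b) h]

/-! ## The weight -/

/-- The weight of the glued estimate. -/
def ws (S : Finset α) (χ : α → E → ℝ) (M : α → Q8 E) (z : E) : ℝ :=
  (∑ k ∈ S, lw ((M k).sm fun z => χ k z ^ 2) z) / 4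

omit [NormedAddCommGroup E] [NormedSpace ℝ E] in
theorem ws_eq (S : Finset α) (χ : α → E → ℝ) (M : α → Q8 E) (z : E) :
    ws S χ M z = (∑ k ∈ S, χ k z ^ 2 * lw (M k) z) / 4 := by
  unfold ws
  congr 1
  exact Finset.sum_congr rfl fun k _ => lw_sm _ (sq_nonneg _)

omit [NormedSpace ℝ E] in
theorem ws_cont {S : Finset α} {χ : α → E → ℝ} {M : α → Q8 E} {U : Set E}
    (cM : ∀ k ∈ S, ((M k).sm fun z => χ k z ^ 2).Ct U) : ContinuousOn (ws S χ M) U := by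
  have h : ContinuousOn (fun z => ∑ k ∈ S, lw ((M k).sm fun z => χ k z ^ 2) z) U :=
    continuousOn_finsetSum _ fun k hk => lw_cont (cM k hk)
  exact h.div_const 4

omit [NormedAddCommGroup E] [NormedSpace ℝ E] in
/-- The weight is at least a quarter of the least margin of the active zones. -/
theorem ws_ge {S : Finset α} {χ : α → E → ℝ} {M : α → Q8 E} {z : E} {B : ℝ}
    (h1 : ∑ k ∈ S, χ k z ^ 2 = 1) (h : ∀ k ∈ S, χ k z ≠ 0 → B ≤ lw (M k) z) :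
    B / 4 ≤ ws S χ M z := by
  rw [ws_eq]
  have := Vale.Agent.P088.R2.H338.E.conv_le S (χ := fun k => χ k z) (M := fun k => lw (M k) z)
    h1 h
  linarith

omit [NormedAddCommGroup E] [NormedSpace ℝ E] in
theorem ws_pos {S : Finset α} {χ : α → E → ℝ} {M : α → Q8 E} {z : E}
    (h1 : ∑ k ∈ S, χ k z ^ 2 = 1) (h : ∀ k ∈ S, χ k z ≠ 0 → 0 < lw (M k) z) :
    0 < ws S χ M z := by
  rw [ws_eq]
  have hn : ∀ k ∈ S, 0 ≤ χ k z ^ 2 * lw (M k) z := fun k hk => by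
    by_cases h0 : χ k z = 0
    · rw [h0]; simp
    · exact mul_nonneg (sq_nonneg _) (h k hk h0).le
  have hex : ∃ k ∈ S, χ k z ≠ 0 := by
    by_contra hc
    push Not at hc
    have : ∑ k ∈ S, χ k z ^ 2 = 0 := Finset.sum_eq_zero fun k hk => by rw [hc k hk]; simp
    rw [this] at h1
    exact zero_ne_one h1
  obtain ⟨k, hk, h0⟩ := hex
  have hp : 0 < χ k z ^ 2 * lw (M k) z := mul_pos (by positivity) (h k hk h0)
  have := Finset.sum_pos' hn ⟨k, hk, hp⟩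
  linarith

/-- The final margin: constant (or continuous) gains and the weight. -/
def mw (κ₀ ζ₀ w : E → ℝ) : Q8 E := ⟨κ₀, ζ₀, ζ₀, 0, w, w, 0, 0⟩

theorem mw_dens (κ₀ ζ₀ w : E → ℝ) : (mw κ₀ ζ₀ w).dens σ τ v₁ v₂ W a b z =
    κ₀ z * sqd σ τ v₁ v₂ W a b z + ζ₀ z * (nX σ W a z + nX τ W b z) +
      w z * (a z ^ 2 + b z ^ 2) := by
  unfold mw Q8.dens
  simp only [Pi.zero_apply]
  ring

omit [NormedSpace ℝ E] in
theorem mw_ct {κ₀ ζ₀ w : E → ℝ} {U : Set E} (h1 : ContinuousOn κ₀ U) (h2 : ContinuousOn ζ₀ U)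
    (h3 : ContinuousOn w U) : (mw κ₀ ζ₀ w).Ct U :=
  ⟨h1, h2, h2, continuousOn_const, h3, h3, continuousOn_const, continuousOn_const⟩

/-- **The payment** for the weight `ws`. -/
theorem pay_ws {S : Finset α} {χ : α → E → ℝ} {M co : α → Q8 E} {κ₀ ζ₀ : E → ℝ}
    (h1 : ∑ k ∈ S, χ k z ^ 2 = 1) (hn : ∀ j ∈ S, χ j z ≠ 0 → Nn (M j) z)
    (hκ : ∀ j ∈ S, χ j z ≠ 0 → 4 * κ₀ z ≤ (M j).κ z)
    (hζ₁ : ∀ j ∈ S, χ j z ≠ 0 → 4 * ζ₀ z ≤ (M j).ζ₁ z)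
    (hζ₂ : ∀ j ∈ S, χ j z ≠ 0 → 4 * ζ₀ z ≤ (M j).ζ₂ z)
    (hco : ∀ k ∈ S, ∀ j ∈ S, χ j z ≠ 0 → 2 * S.card * (co k).dens σ τ v₁ v₂ W a b z ≤
      (M j).dens σ τ v₁ v₂ W a b z) :
    (mw κ₀ ζ₀ (ws S χ M)).dens σ τ v₁ v₂ W a b z +
      ∑ k ∈ S, (co k).dens σ τ v₁ v₂ W a b z ≤
      ∑ k ∈ S, ((M k).sm fun z => χ k z ^ 2).dens σ τ v₁ v₂ W a b z := by
  have hne : S.Nonempty := by
    by_contra hc
    rw [Finset.not_nonempty_iff_eq_empty.1 hc] at h1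
    simp at h1
  have hc0 : (0 : ℝ) < S.card := by exact_mod_cast hne.card_pos
  -- the costs
  have k1 : ∀ j ∈ S, χ j z ≠ 0 → ∑ k ∈ S, (co k).dens σ τ v₁ v₂ W a b z ≤
      (M j).dens σ τ v₁ v₂ W a b z / 2 := by
    intro j hj h0
    have h2 : ∑ k ∈ S, (co k).dens σ τ v₁ v₂ W a b z ≤
        ∑ _k ∈ S, (M j).dens σ τ v₁ v₂ W a b z / (2 * S.card) :=
      Finset.sum_le_sum fun k hk => by
        rw [le_div_iff₀ (by positivity)]
        linarith [hco k hk j hj h0]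
    rw [Finset.sum_const, nsmul_eq_mul] at h2
    have h3 : (S.card : ℝ) * ((M j).dens σ τ v₁ v₂ W a b z / (2 * S.card)) =
        (M j).dens σ τ v₁ v₂ W a b z / 2 := by field_simp
    linarith
  -- the gains
  have k2 : ∀ j ∈ S, χ j z ≠ 0 → κ₀ z * sqd σ τ v₁ v₂ W a b z +
      ζ₀ z * (nX σ W a z + nX τ W b z) ≤ (M j).dens σ τ v₁ v₂ W a b z / 4 := by
    intro j hj h0
    have e0 := gain_le_dens (σ := σ) (τ := τ) (v₁ := v₁) (v₂ := v₂) (W := W) (a := a) (b := b)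
      (hn j hj h0)
    have e1 := mul_le_mul_of_nonneg_right (hκ j hj h0) (sqd_nonneg σ τ v₁ v₂ W a b z)
    have e2 := mul_le_mul_of_nonneg_right (hζ₁ j hj h0) (Q8.nX_nonneg σ W a z)
    have e3 := mul_le_mul_of_nonneg_right (hζ₂ j hj h0) (Q8.nX_nonneg τ W b z)
    linarith
  have k3 : ∀ j ∈ S, χ j z ≠ 0 → κ₀ z * sqd σ τ v₁ v₂ W a b z +
      ζ₀ z * (nX σ W a z + nX τ W b z) + ∑ k ∈ S, (co k).dens σ τ v₁ v₂ W a b z ≤
      3 / 4 * (M j).dens σ τ v₁ v₂ W a b z := by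
    intro j hj h0
    linarith [k1 j hj h0, k2 j hj h0]
  have k4 := Vale.Agent.P088.R2.H338.E.conv_le S (χ := fun j => χ j z)
    (M := fun j => 3 / 4 * (M j).dens σ τ v₁ v₂ W a b z) h1 k3
  have k5 : ws S χ M z * (a z ^ 2 + b z ^ 2) ≤
      ∑ j ∈ S, χ j z ^ 2 * ((M j).dens σ τ v₁ v₂ W a b z / 4) := by
    rw [ws_eq, div_mul_eq_mul_div, Finset.sum_mul, Finset.sum_div]
    refine Finset.sum_le_sum fun j hj => ?_
    by_cases h0 : χ j z = 0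
    · rw [h0]; simp
    · have := lw_le_dens (σ := σ) (τ := τ) (v₁ := v₁) (v₂ := v₂) (W := W) (a := a) (b := b)
        (hn j hj h0)
      have h5 := mul_le_mul_of_nonneg_left this (sq_nonneg (χ j z))
      nlinarith [h5]
  rw [mw_dens]
  have e6 : ∑ k ∈ S, ((M k).sm fun z => χ k z ^ 2).dens σ τ v₁ v₂ W a b z =
      (∑ j ∈ S, χ j z ^ 2 * (3 / 4 * (M j).dens σ τ v₁ v₂ W a b z)) +
        ∑ j ∈ S, χ j z ^ 2 * ((M j).dens σ τ v₁ v₂ W a b z / 4) := by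
    rw [← Finset.sum_add_distrib]
    refine Finset.sum_congr rfl fun j _ => ?_
    rw [Q8.dens_sm]
    ring
  rw [e6]
  linarith

section int

variable {U : Set E} {θ : E → ℝ}
variable [MeasureSpace E] [FiniteDimensional ℝ E] [BorelSpace E]
  [(volume : Measure E).IsAddHaarMeasure]

/-- **Gluing with the weight `ws` and gains.** -/
theorem glue_ws (ok : σ.Ok U θ) (ot : τ.Ok U θ) (c : Cm σ τ U) (hv₁ : Sm U v₁)
    (hv₂ : Sm U v₂) (h₁ : ∀ z ∈ U, ∀ k, τ.D k v₁ z = 0) (h₂ : ∀ z ∈ U, ∀ i, σ.D i v₂ z = 0)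
    (hW : Sm U W) (S : Finset α) {χ : α → E → ℝ} (hχ : ∀ k ∈ S, Sm U (χ k))
    (h1 : ∀ z ∈ U, ∑ k ∈ S, χ k z ^ 2 = 1) {M co : α → Q8 E} {κ₀ ζ₀ : E → ℝ}
    (cκ : ContinuousOn κ₀ U) (cζ : ContinuousOn ζ₀ U)
    (cM : ∀ k ∈ S, ((M k).sm fun z => χ k z ^ 2).Ct U) (cc : ∀ k ∈ S, (co k).Ct U)
    (zone : ∀ k ∈ S, Zone σ τ U θ v₁ v₂ W (χ k) ((M k).sm fun z => χ k z ^ 2) (co k))
    (hn : ∀ z ∈ U, ∀ j ∈ S, χ j z ≠ 0 → Nn (M j) z)
    (hκ : ∀ z ∈ U, ∀ j ∈ S, χ j z ≠ 0 → 4 * κ₀ z ≤ (M j).κ z)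
    (hζ₁ : ∀ z ∈ U, ∀ j ∈ S, χ j z ≠ 0 → 4 * ζ₀ z ≤ (M j).ζ₁ z)
    (hζ₂ : ∀ z ∈ U, ∀ j ∈ S, χ j z ≠ 0 → 4 * ζ₀ z ≤ (M j).ζ₂ z)
    (hco : ∀ z ∈ U, ∀ k ∈ S, ∀ j ∈ S, χ j z ≠ 0 → ∀ a b : E → ℝ,
      2 * S.card * (co k).dens σ τ v₁ v₂ W a b z ≤ (M j).dens σ τ v₁ v₂ W a b z)
    (ha : Te U a) (hb : Te U b) :
    In U θ (fun z => κ₀ z * sqd σ τ v₁ v₂ W a b z + ζ₀ z * (nX σ W a z + nX τ W b z) +
      ws S χ M z * (a z ^ 2 + b z ^ 2)) ≤ TT σ τ U θ v₁ v₂ W a b := by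
  have h := glue ok ot c hv₁ hv₂ h₁ h₂ hW S hχ h1 (m := mw κ₀ ζ₀ (ws S χ M))
    (mw_ct cκ cζ (ws_cont cM)) cM cc zone (fun z hz a b => pay_ws (h1 z hz) (hn z hz) (hκ z hz)
      (hζ₁ z hz) (hζ₂ z hz) fun k hk j hj h0 => hco z hz k hk j hj h0 a b) ha hb
  have e : In U θ (fun z => κ₀ z * sqd σ τ v₁ v₂ W a b z + ζ₀ z * (nX σ W a z + nX τ W b z) +
      ws S χ M z * (a z ^ 2 + b z ^ 2)) =
      In U θ ((mw κ₀ ζ₀ (ws S χ M)).dens σ τ v₁ v₂ W a b) :=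
    In_congr ok.op fun z _ => (mw_dens _ _ _).symm
  rw [e]
  exact h

end int

end Vale.Agent.P088.R2.H850.E
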